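import Mathlib
import Vale.Agent.P287.H468.Gl2

set_option autoImplicit false
set_option linter.all false

/-!
Lines on smooth cubic surfaces, part (a): coordinates, the segment to the Fermat cubic, and the
finiteness of the set of singular members of the segment.
-/

namespace P287H468
open Module

/-- four-dimensional space -/
abbrev E4 : Type := Fin 4 → ℂ

/-- the trilinear form of a tensor -/
def tf (t : Fin 4 → Fin 4 → Fin 4 → ℂ) (x y z : E4) : ℂ :=
  ∑ i, ∑ j, ∑ k, t i j k * x i * y j * z k

/-- the tensor of the Fermat cubic -/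
def fer : Fin 4 → Fin 4 → Fin 4 → ℂ := fun i j k => if i = j ∧ j = k then 1 else 0

/-- the segment from the Fermat cubic to `t` -/
def seg (t : Fin 4 → Fin 4 → Fin 4 → ℂ) (c : ℂ) : Fin 4 → Fin 4 → Fin 4 → ℂ :=
  fun i j k => (1 - c) * fer i j k + c * t i j k

/-- smoothness -/
def SmT (t : Fin 4 → Fin 4 → Fin 4 → ℂ) : Prop := ∀ x : E4, (∀ y, tf t x x y = 0) → x = 0

/-- the cubic surface of `t` contains a line -/
def HasL (t : Fin 4 → Fin 4 → Fin 4 → ℂ) : Prop :=
  ∃ u v : E4, LinearIndependent ℂ ![u, v] ∧ tf t u u u = 0 ∧ tf t u u v = 0 ∧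
    tf t u v v = 0 ∧ tf t v v v = 0

/-! ### the words of length five -/

/-- two equal letters in a word of length five -/
theorem two_eq (w : Fin 5 → Fin 4) : ∃ a b : Fin 5, a ≠ b ∧ w a = w b :=
  Fintype.exists_ne_map_eq_of_card_lt w (by simp)

/-- the monomial of a word -/
def mon (x : E4) (w : Fin 5 → Fin 4) : ℂ := ∏ i, x (w i)

theorem mon_upd (x : E4) (w : Fin 5 → Fin 4) {a b : Fin 5} (hab : a ≠ b) (i j : Fin 4) :
    mon x (Function.update (Function.update w a i) b j) =
      x i * x j * ∏ k ∈ (Finset.univ.erase b).erase a, x (w k) := by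
  rw [mon, ← Finset.mul_prod_erase Finset.univ _ (Finset.mem_univ b),
    ← Finset.mul_prod_erase (Finset.univ.erase b) _
      (Finset.mem_erase.2 ⟨hab, Finset.mem_univ a⟩)]
  have h1 : (Function.update (Function.update w a i) b j) b = j := by simp
  have h2 : (Function.update (Function.update w a i) b j) a = i := by
    rw [Function.update_of_ne hab]; simp
  have h3 : ∏ k ∈ (Finset.univ.erase b).erase a,
      x ((Function.update (Function.update w a i) b j) k) =
      ∏ k ∈ (Finset.univ.erase b).erase a, x (w k) := by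
    refine Finset.prod_congr rfl fun k hk => ?_
    rw [Finset.mem_erase, Finset.mem_erase] at hk
    rw [Function.update_of_ne hk.2.1, Function.update_of_ne hk.1]
  rw [h1, h2, h3]
  ring

/-- the operator attached to a tensor and a choice of two equal letters in each word -/
noncomputable def AA (a b : (Fin 5 → Fin 4) → Fin 5) (t : Fin 4 → Fin 4 → Fin 4 → ℂ) :
    ((Fin 5 → Fin 4) → ℂ) →ₗ[ℂ] ((Fin 5 → Fin 4) → ℂ) where
  toFun f w := ∑ i, ∑ j, t i j (w (a w)) *
    f (Function.update (Function.update w (a w) i) (b w) j)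
  map_add' f g := by
    funext w
    simp only [Pi.add_apply, mul_add, Finset.sum_add_distrib]
  map_smul' r f := by
    funext w
    simp only [Pi.smul_apply, smul_eq_mul, RingHom.id_apply, Finset.mul_sum]
    refine Finset.sum_congr rfl fun i _ => Finset.sum_congr rfl fun j _ => ?_
    ring

theorem AA_apply (a b : (Fin 5 → Fin 4) → Fin 5) (t : Fin 4 → Fin 4 → Fin 4 → ℂ)
    (f : (Fin 5 → Fin 4) → ℂ) (w : Fin 5 → Fin 4) :
    AA a b t f w = ∑ i, ∑ j, t i j (w (a w)) *
      f (Function.update (Function.update w (a w) i) (b w) j) := rfl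

theorem AA_mon (a b : (Fin 5 → Fin 4) → Fin 5) (hab : ∀ w, a w ≠ b w)
    (t : Fin 4 → Fin 4 → Fin 4 → ℂ) (x : E4) (hx : ∀ y, tf t x x y = 0) :
    AA a b t (mon x) = 0 := by
  funext w
  rw [AA_apply, Pi.zero_apply]
  have h := hx (Pi.single (w (a w)) 1)
  have h2 : tf t x x (Pi.single (w (a w)) 1) = ∑ i, ∑ j, t i j (w (a w)) * x i * x j := by
    rw [tf]
    refine Finset.sum_congr rfl fun i _ => Finset.sum_congr rfl fun j _ => ?_
    rw [Finset.sum_eq_single (w (a w))]
    · simp
    · intro k _ hk
      rw [Pi.single_eq_of_ne hk]; simp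
    · intro hk; exact absurd (Finset.mem_univ _) hk
  rw [h2] at h
  have h3 : ∑ i, ∑ j, t i j (w (a w)) *
      mon x (Function.update (Function.update w (a w) i) (b w) j) =
      (∑ i, ∑ j, t i j (w (a w)) * x i * x j) *
        ∏ k ∈ (Finset.univ.erase (b w)).erase (a w), x (w k) := by
    rw [Finset.sum_mul]
    refine Finset.sum_congr rfl fun i _ => ?_
    rw [Finset.sum_mul]
    refine Finset.sum_congr rfl fun j _ => ?_
    rw [mon_upd x w (hab w) i j]
    ring
  rw [h3, h, zero_mul]

theorem AA_fer (a b : (Fin 5 → Fin 4) → Fin 5) (hab : ∀ w, a w ≠ b w ∧ w (a w) = w (b w))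
    (f : (Fin 5 → Fin 4) → ℂ) : AA a b fer f = f := by
  funext w
  rw [AA_apply, Finset.sum_eq_single (w (a w)), Finset.sum_eq_single (w (a w))]
  · have h1 : fer (w (a w)) (w (a w)) (w (a w)) = 1 := by simp [fer]
    have h2 : Function.update (Function.update w (a w) (w (a w))) (b w) (w (a w)) = w := by
      rw [Function.update_eq_self, (hab w).2, Function.update_eq_self]
    rw [h1, h2, one_mul]
  · intro j _ hj
    have h1 : fer (w (a w)) j (w (a w)) = 0 := by
      rw [fer, if_neg]
      intro h; exact hj h.2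
    rw [h1, zero_mul]
  · intro h; exact absurd (Finset.mem_univ _) h
  · intro i _ hi
    refine Finset.sum_eq_zero fun j _ => ?_
    have h1 : fer i j (w (a w)) = 0 := by
      rw [fer, if_neg]
      intro h; exact hi (h.1.trans h.2)
    rw [h1, zero_mul]
  · intro h; exact absurd (Finset.mem_univ _) h

theorem AA_seg (a b : (Fin 5 → Fin 4) → Fin 5) (t : Fin 4 → Fin 4 → Fin 4 → ℂ) (c : ℂ)
    (f : (Fin 5 → Fin 4) → ℂ) :
    AA a b (seg t c) f = (1 - c) • AA a b fer f + c • AA a b t f := by
  funext w
  simp only [AA_apply, Pi.add_apply, Pi.smul_apply, smul_eq_mul, Finset.mul_sum, seg]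
  rw [← Finset.sum_add_distrib]
  refine Finset.sum_congr rfl fun i _ => ?_
  rw [← Finset.sum_add_distrib]
  refine Finset.sum_congr rfl fun j _ => ?_
  ring

/-- only finitely many members of the segment are singular -/
theorem bad_finite (t : Fin 4 → Fin 4 → Fin 4 → ℂ) : {c : ℂ | ¬ SmT (seg t c)}.Finite := by
  choose a b hab using two_eq
  have hinj : Function.Injective fun c : ℂ => 1 - c⁻¹ := by
    intro c d h
    have h2 : c⁻¹ = d⁻¹ := by
      have h3 : 1 - c⁻¹ = 1 - d⁻¹ := h
      linear_combination -h3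
    exact inv_injective h2
  have hfin : {μ : ℂ | Module.End.HasEigenvalue (AA a b t) μ}.Finite :=
    Module.End.finite_hasEigenvalue (AA a b t)
  refine (hfin.preimage (hinj.injOn (s := (fun c : ℂ => 1 - c⁻¹) ⁻¹'
    {μ : ℂ | Module.End.HasEigenvalue (AA a b t) μ}))).subset ?_
  intro c hc
  rw [Set.mem_setOf_eq, SmT] at hc
  push Not at hc
  obtain ⟨x, hx, hx0⟩ := hc
  have h1 := AA_mon a b (fun w => (hab w).1) (seg t c) x hx
  rw [AA_seg, AA_fer a b hab] at h1
  have hm : mon x ≠ 0 := by
    intro h
    apply hx0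
    funext p
    have h2 := congrFun h (fun _ => p)
    rw [mon] at h2
    simpa using h2
  have hc0 : c ≠ 0 := by
    intro h
    rw [h] at h1
    apply hm
    simpa using h1
  have h4 : AA a b t (mon x) = (1 - c⁻¹) • mon x := by
    have h5 : c • AA a b t (mon x) = (c - 1) • mon x := by
      have h6 : c • AA a b t (mon x) = -((1 - c) • mon x) := by
        rw [eq_neg_iff_add_eq_zero, add_comm]; exact h1
      rw [h6, ← neg_smul]
      congr 1
      ring
    have h7 : AA a b t (mon x) = c⁻¹ • (c • AA a b t (mon x)) := by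
      rw [smul_smul, inv_mul_cancel₀ hc0, one_smul]
    rw [h7, h5, smul_smul]
    congr 1
    field_simp
  exact Module.End.hasEigenvalue_of_hasEigenvector
    (Module.End.hasEigenvector_iff.2 ⟨Module.End.mem_eigenspace_iff.2 h4, hm⟩)

/-! ### the Fermat cubic -/

theorem seg_zero (t : Fin 4 → Fin 4 → Fin 4 → ℂ) : seg t 0 = fer := by
  funext i j k; simp [seg]

theorem seg_one (t : Fin 4 → Fin 4 → Fin 4 → ℂ) : seg t 1 = t := by
  funext i j k; simp [seg]

theorem fer_smooth : SmT fer := by
  intro x hx
  funext p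
  have h := hx (Pi.single p 1)
  have h2 : tf fer x x (Pi.single p 1) = x p * x p := by
    rw [tf, Finset.sum_eq_single p, Finset.sum_eq_single p, Finset.sum_eq_single p]
    · simp [fer]
    · intro k _ hk; rw [Pi.single_eq_of_ne hk]; simp
    · intro h; exact absurd (Finset.mem_univ _) h
    · intro j _ hj
      refine Finset.sum_eq_zero fun k _ => ?_
      rw [fer, if_neg (fun h => hj h.1.symm)]; simp
    · intro h; exact absurd (Finset.mem_univ _) h
    · intro i _ hi
      refine Finset.sum_eq_zero fun j _ => Finset.sum_eq_zero fun k _ => ?_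
      by_cases hk : k = p
      · rw [fer, if_neg (fun h => hi (h.1.trans (h.2.trans hk)))]; simp
      · rw [Pi.single_eq_of_ne hk]; simp
    · intro h; exact absurd (Finset.mem_univ _) h
  rw [h2] at h
  exact mul_self_eq_zero.1 h

theorem fer_line : HasL fer := by
  refine ⟨![1, -1, 0, 0], ![0, 0, 1, -1], ?_, ?_, ?_, ?_, ?_⟩
  · rw [LinearIndependent.pair_iff]
    intro s r h
    have h0 := congrFun h 0
    have h2 := congrFun h 2
    simp at h0 h2
    exact ⟨h0, h2⟩
  all_goals simp [tf, fer, Fin.sum_univ_four]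

theorem seg_symm {t : Fin 4 → Fin 4 → Fin 4 → ℂ} (h12 : ∀ i j k, t i j k = t j i k)
    (h23 : ∀ i j k, t i j k = t i k j) (c : ℂ) :
    (∀ i j k, seg t c i j k = seg t c j i k) ∧ (∀ i j k, seg t c i j k = seg t c i k j) := by
  constructor
  · intro i j k
    rw [seg, seg, h12 i j k]
    have : fer i j k = fer j i k := by
      simp only [fer]
      by_cases h : i = j
      · subst h; rfl
      · rw [if_neg (fun e => h e.1), if_neg (fun e => h e.1.symm)]
    rw [this]
  · intro i j k
    rw [seg, seg, h23 i j k]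
    have : fer i j k = fer i k j := by
      simp only [fer]
      by_cases h : j = k
      · subst h; rfl
      · rw [if_neg (fun e => h e.2), if_neg (fun e => h e.2.symm)]
    rw [this]

/-! ### transfer to abstract spaces -/

theorem tf_basis {E : Type} [AddCommGroup E] [Module ℂ E] (b : Basis (Fin 4) ℂ E)
    (T : E →ₗ[ℂ] E →ₗ[ℂ] E →ₗ[ℂ] ℂ) (x y z : E4) :
    tf (fun i j k => T (b i) (b j) (b k)) x y z =
      T (b.equivFun.symm x) (b.equivFun.symm y) (b.equivFun.symm z) := by
  have e1 : ∀ Y Z : E, T (∑ i, x i • b i) Y Z = ∑ i, x i * T (b i) Y Z := by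
    intro Y Z
    rw [map_sum, LinearMap.sum_apply, LinearMap.sum_apply]
    refine Finset.sum_congr rfl fun i _ => ?_
    rw [map_smul, LinearMap.smul_apply, LinearMap.smul_apply, smul_eq_mul]
  have e2 : ∀ X Z : E, T X (∑ i, y i • b i) Z = ∑ i, y i * T X (b i) Z := by
    intro X Z
    rw [map_sum, LinearMap.sum_apply]
    refine Finset.sum_congr rfl fun i _ => ?_
    rw [map_smul, LinearMap.smul_apply, smul_eq_mul]
  have e3 : ∀ X Y : E, T X Y (∑ i, z i • b i) = ∑ i, z i * T X Y (b i) := by
    intro X Y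
    rw [map_sum]
    refine Finset.sum_congr rfl fun i _ => ?_
    rw [map_smul, smul_eq_mul]
  rw [b.equivFun_symm_apply, b.equivFun_symm_apply, b.equivFun_symm_apply, tf, e1]
  refine Finset.sum_congr rfl fun i _ => ?_
  rw [e2, Finset.mul_sum]
  refine Finset.sum_congr rfl fun j _ => ?_
  rw [e3, Finset.mul_sum, Finset.mul_sum]
  refine Finset.sum_congr rfl fun k _ => ?_
  ring

theorem lineStmt_of (H : ∀ t : Fin 4 → Fin 4 → Fin 4 → ℂ, (∀ i j k, t i j k = t j i k) →
    (∀ i j k, t i j k = t i k j) → SmT t → HasL t) : LineStmt := by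
  intro E _ _ _ hdim T h12 h23 hsm
  let b : Basis (Fin 4) ℂ E := Module.finBasisOfFinrankEq ℂ E hdim
  obtain ⟨u, v, hli, h0, h1, h2, h3⟩ := H (fun i j k => T (b i) (b j) (b k))
    (fun i j k => h12 _ _ _) (fun i j k => h23 _ _ _) (by
      intro x hx
      have : b.equivFun.symm x = 0 := by
        apply hsm
        intro y
        have := hx (b.equivFun y)
        rw [tf_basis, LinearEquiv.symm_apply_apply] at this
        exact this
      exact (LinearEquiv.map_eq_zero_iff _).1 this)
  rw [tf_basis] at h0 h1 h2 h3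
  refine ⟨b.equivFun.symm u, b.equivFun.symm v, ?_, ?_⟩
  · rw [LinearIndependent.pair_iff] at hli ⊢
    intro s r h
    apply hli
    have h4 : b.equivFun.symm (s • u + r • v) = 0 := by
      rw [map_add, map_smul, map_smul]; exact h
    exact (LinearEquiv.map_eq_zero_iff _).1 h4
  · intro s r
    set U := b.equivFun.symm u
    set V := b.equivFun.symm v
    have e1 : T U V U = T U U V := h23 U V U
    have e2 : T V U U = T U U V := by rw [h12 V U U, h23 U V U]
    have e3 : T V U V = T U V V := h12 V U V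
    have e4 : T V V U = T U V V := by rw [h23 V V U, h12 V U V]
    simp only [map_add, map_smul, LinearMap.add_apply, LinearMap.smul_apply, smul_eq_mul]
    rw [e1, e2, e3, e4, h0, h1, h2, h3]
    ring

end P287H468
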