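import Vale.Agent.P287.H932.LineB
import Vale.Agent.P287.H149.LineCD

set_option autoImplicit false
set_option linter.all false

/-!
Every smooth cubic surface contains a line.
-/

namespace P287H468

/-- Every smooth cubic surface contains a line. -/
theorem lineStmt : LineStmt := by
  refine lineStmt_of fun t h12 h23 hsm => ?_
  have hs : ∀ i j k, t i j k = t j i k ∧ t i j k = t i k j := fun i j k => ⟨h12 i j k, h23 i j k⟩
  exact hasL_of t hsm (fun c0 => hasL_open t hs c0) (hasL_closed t hs)

end P287H468
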