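import Vale.Agent.P287.H468.Phi3
import Vale.Agent.P287.H468.TwoEck
import Vale.Agent.P287.H468.NoP3

set_option autoImplicit false
set_option linter.all false

/-!
Involutions of a smooth cubic fourfold: dimensions of the eigenspaces, and commuting involutions.
-/

namespace P287H468
open Module

namespace Spl

theorem mem_minus {C : Matrix (Fin 6) (Fin 6) ℂ} (w : Fin 6 → ℂ) :
    w ∈ LinearMap.ker (Matrix.toLin' (C + 1)) ↔ C.mulVec w = -w := by
  rw [LinearMap.mem_ker, Matrix.toLin'_apply, Matrix.add_mulVec, Matrix.one_mulVec]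
  exact add_eq_zero_iff_eq_neg

theorem neg3 (a : Fin 6 → Fin 6 → Fin 6 → ℂ) (x : Fin 6 → ℂ) :
    Tri a (-x) (-x) (-x) = -Tri a x x x := by
  simp only [Tri, Pi.neg_apply, ← Finset.sum_neg_distrib]
  refine Finset.sum_congr rfl fun i _ => Finset.sum_congr rfl fun j _ =>
    Finset.sum_congr rfl fun k _ => ?_
  ring

end Spl

open Spl

/-- the cubic vanishes on the `-1`-eigenspace of an involution -/
theorem dim_minus_le {a : Fin 6 → Fin 6 → Fin 6 → ℂ} (hs : SymT a) (hsm : Smo a)
    {C : Matrix (Fin 6) (Fin 6) ℂ} (hC : C * C = 1)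
    (hinv : ∀ x, Tri a (C.mulVec x) (C.mulVec x) (C.mulVec x) = Tri a x x x) :
    Module.finrank ℂ (LinearMap.ker (Matrix.toLin' (C + 1))) ≤ 3 := by
  by_contra h
  push Not at h
  refine no_P3 a hs hsm _ h fun x hx => ?_
  have h1 := hinv x
  rw [(mem_minus x).1 hx, neg3] at h1
  have h2 : (2 : ℂ) * Tri a x x x = 0 := by linear_combination -h1
  rcases mul_eq_zero.1 h2 with h3 | h3
  · norm_num at h3
  · exact h3

/-- the dimension of the `-1`-eigenspace of an involution of determinant `-1` is odd -/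
theorem dim_minus_odd {A : Matrix (Fin 6) (Fin 6) ℂ} (hA : A * A = 1) (hd : A.det = -1) :
    Odd (Module.finrank ℂ (LinearMap.ker (Matrix.toLin' (A + 1)))) := by
  have hAA : ∀ x, A.mulVec (A.mulVec x) = x := by
    intro x; rw [Matrix.mulVec_mulVec, hA, Matrix.one_mulVec]
  obtain ⟨W, hW⟩ : ∃ W, W = LinearMap.ker (Matrix.toLin' (A + 1)) := ⟨_, rfl⟩
  obtain ⟨U, hU⟩ : ∃ U, U = LinearMap.ker (Matrix.toLin' (A - 1)) := ⟨_, rfl⟩
  have mW : ∀ w, w ∈ W ↔ A.mulVec w = -w := fun w => by rw [hW]; exact mem_minus w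
  have mU : ∀ w, w ∈ U ↔ A.mulVec w = w := fun w => by
    rw [hU, LinearMap.mem_ker, Matrix.toLin'_apply, Matrix.sub_mulVec, Matrix.one_mulVec]
    exact sub_eq_zero
  have hc : IsCompl W U := by
    constructor
    · rw [Submodule.disjoint_def]
      intro x h1 h2
      have h3 := (mW x).1 h1
      rw [(mU x).1 h2] at h3
      exact self_eq_neg.1 h3
    · rw [codisjoint_iff, eq_top_iff]
      intro x _
      have e : x = ((1 / 2 : ℂ) • (x - A.mulVec x)) + ((1 / 2 : ℂ) • (x + A.mulVec x)) := by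
        rw [← smul_add, sub_add_add_cancel, ← two_smul ℂ x, smul_smul]
        norm_num
      rw [e]
      refine Submodule.add_mem_sup ?_ ?_
      · rw [mW, Matrix.mulVec_smul, Matrix.mulVec_sub, hAA, ← smul_neg, neg_sub]
      · rw [mU, Matrix.mulVec_smul, Matrix.mulVec_add, hAA, add_comm]
  have hdet : LinearMap.det (Matrix.toLin' A) = (-1) ^ (Module.finrank ℂ W) := by
    have h1 : Matrix.toLin' A = ((Submodule.prodEquivOfIsCompl W U hc) : (W × U) →ₗ[ℂ] (Fin 6 → ℂ)) ∘ₗ
        (((-1 : ℂ) • (LinearMap.id : W →ₗ[ℂ] W)).prodMap (LinearMap.id : U →ₗ[ℂ] U)) ∘ₗ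
        ((Submodule.prodEquivOfIsCompl W U hc).symm : (Fin 6 → ℂ) →ₗ[ℂ] (W × U)) := by
      refine LinearMap.ext fun x => ?_
      obtain ⟨y, rfl⟩ := (Submodule.prodEquivOfIsCompl W U hc).surjective x
      simp only [LinearMap.comp_apply, LinearEquiv.coe_coe, LinearEquiv.symm_apply_apply,
        LinearMap.prodMap_apply, LinearMap.smul_apply, LinearMap.id_apply]
      rw [Submodule.coe_prodEquivOfIsCompl', Submodule.coe_prodEquivOfIsCompl',
        Matrix.toLin'_apply, Matrix.mulVec_add, (mW _).1 y.1.2, (mU _).1 y.2.2]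
      simp
    rw [h1, LinearMap.det_conj, LinearMap.det_prodMap, LinearMap.det_smul, LinearMap.det_id,
      LinearMap.det_id]
    ring
  rw [LinearMap.det_toLin', hd] at hdet
  rw [← hW]
  rcases Nat.even_or_odd (Module.finrank ℂ W) with h | h
  · rw [h.neg_one_pow] at hdet
    norm_num at hdet
  · exact h

/-- Two commuting involutions of a smooth cubic fourfold. -/
theorem comm_inv (a : Fin 6 → Fin 6 → Fin 6 → ℂ) (hs : SymT a) (hsm : Smo a)
    (A B : Matrix (Fin 6) (Fin 6) ℂ) (hA : A * A = 1) (hB : B * B = 1) (hAB : A * B = B * A)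
    (hne : A ≠ B) (hB1 : B ≠ 1)
    (hiA : ∀ x, Tri a (A.mulVec x) (A.mulVec x) (A.mulVec x) = Tri a x x x)
    (hiB : ∀ x, Tri a (B.mulVec x) (B.mulVec x) (B.mulVec x) = Tri a x x x)
    (hd : A.det = -1) : IsRat (fun z => Tri a z z z) := by
  -- products
  have prod : ∀ {B : Matrix (Fin 6) (Fin 6) ℂ}, B * B = 1 → A * B = B * A →
      (∀ x, Tri a (B.mulVec x) (B.mulVec x) (B.mulVec x) = Tri a x x x) →
      (A * B) * (A * B) = 1 ∧ (∀ x, Tri a ((A * B).mulVec x) ((A * B).mulVec x)
        ((A * B).mulVec x) = Tri a x x x) := by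
    intro B hB hAB hiB
    constructor
    · calc (A * B) * (A * B) = A * (B * A) * B := by simp only [Matrix.mul_assoc]
        _ = A * (A * B) * B := by rw [hAB]
        _ = (A * A) * (B * B) := by simp only [Matrix.mul_assoc]
        _ = 1 := by rw [hA, hB, Matrix.one_mul]
    · intro x
      rw [← Matrix.mulVec_mulVec, hiA, hiB]
  have hle := dim_minus_le hs hsm hA hiA
  have hodd := dim_minus_odd hA hd
  by_cases h3 : Module.finrank ℂ (LinearMap.ker (Matrix.toLin' (A + 1))) = 3
  · exact phi3 a hs hsm A hA hiA h3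
  have h1 : Module.finrank ℂ (LinearMap.ker (Matrix.toLin' (A + 1))) = 1 := by
    obtain ⟨m, hm⟩ := hodd
    omega
  obtain ⟨p, hp0, hp, hps⟩ := TE.refl_vec h1
  have hAA : ∀ x, A.mulVec (A.mulVec x) = x := by
    intro x; rw [Matrix.mulVec_mulVec, hA, Matrix.one_mulVec]
  -- the case `B p = p`
  have main : ∀ {B : Matrix (Fin 6) (Fin 6) ℂ}, B * B = 1 → A * B = B * A → B ≠ 1 →
      (∀ x, Tri a (B.mulVec x) (B.mulVec x) (B.mulVec x) = Tri a x x x) → B.mulVec p = p →
      IsRat (fun z => Tri a z z z) := by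
    intro B hB hAB hB1 hiB hBp
    have hBB : ∀ x, B.mulVec (B.mulVec x) = x := by
      intro x; rw [Matrix.mulVec_mulVec, hB, Matrix.one_mulVec]
    have hcomm : ∀ x, A.mulVec (B.mulVec x) = B.mulVec (A.mulVec x) := by
      intro x; rw [Matrix.mulVec_mulVec, Matrix.mulVec_mulVec, hAB]
    obtain ⟨hC, hiC⟩ := prod hB hAB hiB
    -- `A` is the identity on the `-1`-eigenspace of `B`
    have hfix : ∀ w, B.mulVec w = -w → A.mulVec w = w := by
      intro w hw
      obtain ⟨c, hc⟩ := hps (A.mulVec w - w) (by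
        rw [Matrix.mulVec_sub, hAA, neg_sub])
      have e1 : A.mulVec w = w + c • p := by rw [← hc]; abel
      have e2 := hcomm w
      rw [hw, Matrix.mulVec_neg, e1, Matrix.mulVec_add, Matrix.mulVec_smul, hBp, hw] at e2
      have e3 : (2 : ℂ) • (c • p) = 0 := by
        rw [two_smul]
        have this : -(w + c • p) + w + c • p = -w + c • p + w + c • p := by rw [e2]
        have e4 : -(w + c • p) + w + c • p = 0 := by abel
        have e5 : -w + c • p + w + c • p = c • p + c • p := by abel
        rw [e4, e5] at this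
        exact this.symm
      rcases smul_eq_zero.1 e3 with h | h
      · norm_num at h
      · rw [e1, h, add_zero]
    have hbpos : 1 ≤ Module.finrank ℂ (LinearMap.ker (Matrix.toLin' (B + 1))) := by
      rw [Nat.one_le_iff_ne_zero]
      intro h0
      have hbot := Submodule.finrank_eq_zero.1 h0
      apply hB1
      apply Matrix.toLin'.injective
      refine LinearMap.ext fun x => ?_
      rw [Matrix.toLin'_apply, Matrix.toLin'_one, LinearMap.id_apply]
      have hx : B.mulVec x - x ∈ LinearMap.ker (Matrix.toLin' (B + 1)) := by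
        rw [mem_minus, Matrix.mulVec_sub, hBB, neg_sub]
      rw [hbot, Submodule.mem_bot] at hx
      exact sub_eq_zero.1 hx
    -- the `-1`-eigenspace of `A * B`
    have hsum : Module.finrank ℂ (LinearMap.ker (Matrix.toLin' (B + 1))) + 1 ≤
        Module.finrank ℂ (LinearMap.ker (Matrix.toLin' (A * B + 1))) := by
      have hdis : Disjoint (LinearMap.ker (Matrix.toLin' (B + 1))) (ℂ ∙ p) := by
        rw [Submodule.disjoint_def]
        intro x hx1 hx2
        obtain ⟨c, rfl⟩ := Submodule.mem_span_singleton.1 hx2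
        have h4 := (mem_minus _).1 hx1
        rw [Matrix.mulVec_smul, hBp] at h4
        exact self_eq_neg.1 h4
      have h6 := Submodule.finrank_sup_add_finrank_inf_eq (LinearMap.ker (Matrix.toLin' (B + 1)))
        (ℂ ∙ p)
      rw [disjoint_iff.1 hdis, finrank_bot, add_zero, finrank_span_singleton hp0] at h6
      rw [← h6]
      refine Submodule.finrank_mono (sup_le ?_ ?_)
      · intro w hw
        have hw' := (mem_minus w).1 hw
        rw [mem_minus, ← Matrix.mulVec_mulVec, hw', Matrix.mulVec_neg, hfix w hw']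
      · rw [Submodule.span_singleton_le_iff_mem, mem_minus, ← Matrix.mulVec_mulVec, hBp, hp]
    have hC3 := dim_minus_le hs hsm hC hiC
    by_cases hb : Module.finrank ℂ (LinearMap.ker (Matrix.toLin' (B + 1))) = 1
    · refine two_eck_inv a hs hsm A B hA hB hAB ?_ hiA hiB h1 hb
      intro h
      rw [h] at hp
      rw [hp] at hBp
      exact hp0 (neg_eq_self.1 hBp)
    · exact phi3 a hs hsm (A * B) hC hiC (by omega)
  -- reduction
  have hBp : B.mulVec p = p ∨ B.mulVec p = -p := by
    obtain ⟨c, hc⟩ := hps (B.mulVec p) (by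
      rw [Matrix.mulVec_mulVec, hAB, ← Matrix.mulVec_mulVec, hp, Matrix.mulVec_neg])
    have h5 : B.mulVec (B.mulVec p) = p := by
      rw [Matrix.mulVec_mulVec, hB, Matrix.one_mulVec]
    rw [hc, Matrix.mulVec_smul, hc, smul_smul] at h5
    have h6 : (c * c - 1) • p = 0 := by rw [sub_smul, one_smul, h5, sub_self]
    rcases smul_eq_zero.1 h6 with h | h
    · have h7 : (c - 1) * (c + 1) = 0 := by linear_combination h
      rcases mul_eq_zero.1 h7 with h8 | h8
      · left; rw [hc, sub_eq_zero.1 h8, one_smul]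
      · right; rw [hc, eq_neg_of_add_eq_zero_left h8, neg_smul, one_smul]
    · exact absurd h hp0
  rcases hBp with hBp | hBp
  · exact main hB hAB hB1 hiB hBp
  · obtain ⟨hC, hiC⟩ := prod hB hAB hiB
    refine main hC ?_ ?_ hiC ?_
    · calc A * (A * B) = A * (B * A) := by rw [hAB]
        _ = A * B * A := by rw [Matrix.mul_assoc]
    · intro h
      apply hne
      calc A = A * (A * B) := by rw [h, Matrix.mul_one]
        _ = (A * A) * B := by rw [Matrix.mul_assoc]
        _ = B := by rw [hA, Matrix.one_mul]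
    · rw [← Matrix.mulVec_mulVec, hBp, Matrix.mulVec_neg, hp, neg_neg]

end P287H468
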