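import Mathlib
import Vale.Agent.P287.H932.LineA

set_option autoImplicit false
set_option linter.all false

/-!
Lines on smooth cubic surfaces, part (b): the connectedness argument.
-/

namespace P287H468
open Module Filter Topology

/-- the complement of a finite set in the plane is connected -/
theorem conn_compl {B : Set ℂ} (hB : B.Finite) : IsPreconnected Bᶜ := by
  have h : 1 < Module.rank ℝ ℂ := by
    rw [Complex.rank_real_complex]; norm_num
  exact (hB.countable.isPathConnected_compl_of_one_lt_rank h).isConnected.isPreconnected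

/-- existence of a line from openness and closedness -/
theorem hasL_of (t : Fin 4 → Fin 4 → Fin 4 → ℂ) (hsm : SmT t)
    (hopen : ∀ c0 : ℂ, SmT (seg t c0) → HasL (seg t c0) → ∀ᶠ c in 𝓝 c0, HasL (seg t c))
    (hcl : IsClosed {c : ℂ | HasL (seg t c)}) : HasL t := by
  have hpre := conn_compl (bad_finite t)
  have h0 : (0 : ℂ) ∈ {c : ℂ | ¬ SmT (seg t c)}ᶜ := by
    rw [Set.mem_compl_iff, Set.mem_setOf_eq, not_not, seg_zero]; exact fer_smooth
  have h1 : (1 : ℂ) ∈ {c : ℂ | ¬ SmT (seg t c)}ᶜ := by
    rw [Set.mem_compl_iff, Set.mem_setOf_eq, not_not, seg_one]; exact hsm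
  have hL0 : (0 : ℂ) ∈ interior {c : ℂ | HasL (seg t c)} := by
    rw [mem_interior_iff_mem_nhds]
    have := hopen 0 (by rw [seg_zero]; exact fer_smooth) (by rw [seg_zero]; exact fer_line)
    exact this
  have hsub := hpre.subset_of_closure_inter_subset (u := interior {c : ℂ | HasL (seg t c)})
    isOpen_interior ⟨0, h0, hL0⟩ (by
      rintro c ⟨hc1, hc2⟩
      have hc3 : c ∈ {c : ℂ | HasL (seg t c)} := by
        have := closure_mono (interior_subset (s := {c : ℂ | HasL (seg t c)})) hc1
        rwa [hcl.closure_eq] at this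
      rw [Set.mem_compl_iff, Set.mem_setOf_eq, not_not] at hc2
      rw [mem_interior_iff_mem_nhds]
      exact hopen c hc2 hc3)
  have h2 := interior_subset (hsub h1)
  rw [Set.mem_setOf_eq, seg_one] at h2
  exact h2

end P287H468
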