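import Vale.Agent.P287.H468.Fin1

set_option autoImplicit false
set_option linter.all false

/-!
Reflections of a smooth cubic fourfold and Eckardt points.
-/

namespace P287H468
open MvPolynomial Matrix

namespace Refl

/-- a reflection moves every vector by a multiple of `p` -/
theorem refl_form {A : Matrix (Fin 6) (Fin 6) ℂ} (hr : (A - 1).rank = 1) {p : Fin 6 → ℂ}
    (hp : p ≠ 0) (hAp : A *ᵥ p = -p) (x : Fin 6 → ℂ) : ∃ c : ℂ, A *ᵥ x = x - (2 * c) • p := by
  have h1 : Module.finrank ℂ (LinearMap.range (A - 1).mulVecLin) = 1 := hr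
  have e : ∀ y, (A - 1).mulVecLin y = A *ᵥ y - y := by
    intro y
    rw [Matrix.mulVecLin_apply, Matrix.sub_mulVec, Matrix.one_mulVec]
  have hv : (⟨(A - 1).mulVecLin p, LinearMap.mem_range_self _ _⟩ :
      LinearMap.range (A - 1).mulVecLin) ≠ 0 := by
    intro h
    have h2 : (A - 1).mulVecLin p = 0 := congrArg Subtype.val h
    rw [e, hAp] at h2
    apply hp
    have h3 : (-2 : ℂ) • p = 0 := by
      rw [← h2, neg_smul, two_smul]
      abel
    exact (smul_eq_zero.1 h3).resolve_left (by norm_num)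
  obtain ⟨c, hc⟩ := (finrank_eq_one_iff_of_nonzero' _ hv).1 h1
    ⟨(A - 1).mulVecLin x, LinearMap.mem_range_self _ _⟩
  have hc' : c • (A - 1).mulVecLin p = (A - 1).mulVecLin x := congrArg Subtype.val hc
  rw [e, e, hAp] at hc'
  refine ⟨c, ?_⟩
  have h4 : A *ᵥ x = x + c • (-p - p) := by rw [hc']; abel
  rw [h4, mul_smul, two_smul, smul_sub, smul_neg]
  abel

variable {F : MvPolynomial (Fin 6) ℂ} (hF : F.IsHomogeneous 3)
include hF

/-- the trilinear form is invariant -/
theorem inv3 {A : Matrix (Fin 6) (Fin 6) ℂ} (hinv : ∀ x, eval (A *ᵥ x) F = eval x F)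
    (x y z : E6) : T6 (ten F) (A *ᵥ x) (A *ᵥ y) (A *ᵥ z) = T6 (ten F) x y z := by
  rw [T6_apply, T6_apply]
  have h := TE.polar_inv (ten_sym F) (Matrix.toLin' A) (fun x => by
    rw [Matrix.toLin'_apply, ← val_ten hF, ← val_ten hF]
    exact hinv x) x y z
  rw [Matrix.toLin'_apply, Matrix.toLin'_apply, Matrix.toLin'_apply] at h
  exact h

/-- the values of the form of a reflection -/
theorem refl_vals {A : Matrix (Fin 6) (Fin 6) ℂ} (hr : (A - 1).rank = 1)
    (hinv : ∀ x, eval (A *ᵥ x) F = eval x F) {p : Fin 6 → ℂ} (hp : p ≠ 0) (hAp : A *ᵥ p = -p) :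
    T6 (ten F) p p p = 0 ∧ ∀ x, ∃ (c : ℂ) (y : E6), A *ᵥ x = x - (2 * c) • p ∧ x = y + c • p ∧
      T6 (ten F) p y y = 0 ∧ T6 (ten F) p p x = T6 (ten F) p p y := by
  have hn : ∀ z : ℂ, z = -z → z = 0 := by
    intro z hz
    have : (2 : ℂ) * z = 0 := by linear_combination hz
    exact (mul_eq_zero.1 this).resolve_left two_ne_zero
  have hppp : T6 (ten F) p p p = 0 := by
    apply hn
    have h := inv3 hF hinv p p p
    rw [hAp] at h
    simp only [map_neg, LinearMap.neg_apply, neg_neg] at h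
    exact h.symm
  refine ⟨hppp, fun x => ?_⟩
  obtain ⟨c, hc⟩ := refl_form hr hp hAp x
  have hy : A *ᵥ (x - c • p) = x - c • p := by
    rw [Matrix.mulVec_sub, Matrix.mulVec_smul, hAp, hc, mul_smul, two_smul, smul_neg]
    abel
  refine ⟨c, x - c • p, hc, by abel, ?_, ?_⟩
  · apply hn
    have h := inv3 hF hinv p (x - c • p) (x - c • p)
    rw [hAp, hy] at h
    rw [map_neg, LinearMap.neg_apply, LinearMap.neg_apply] at h
    exact h.symm
  · rw [map_sub, map_smul, hppp, smul_zero, sub_zero]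

end Refl

open Refl

/-- the vector of a reflection which preserves a smooth cubic is an Eckardt point -/
theorem eckardt_of_refl {F : MvPolynomial (Fin 6) ℂ} (hF : F.IsHomogeneous 3)
    (hsm : SmoothForm F) {A : Matrix (Fin 6) (Fin 6) ℂ} (hA : A * A = 1)
    (hr : (A - 1).rank = 1) (hinv : ∀ x, eval (A *ᵥ x) F = eval x F) {p : Fin 6 → ℂ}
    (hp : p ≠ 0) (hAp : A *ᵥ p = -p) : EckardtPoint F p := by
  have hs := symL_of hF
  obtain ⟨hppp, hval⟩ := refl_vals hF hr hinv hp hAp
  refine ⟨hp, fun x hx s => ?_⟩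
  obtain ⟨c, y, -, hxy, hpyy, hppx⟩ := hval x
  have h1 : T6 (ten F) p p y = 0 := by
    rw [grad_val hF, ← T6_apply] at hx
    rw [← hppx]
    exact (mul_eq_zero.1 hx).resolve_left three_ne_zero
  have key : ∀ r : ℂ, eval (y + r • p) F = T6 (ten F) y y y := by
    intro r
    rw [eval_T6 hF]
    simp only [map_add, map_smul, LinearMap.add_apply, LinearMap.smul_apply, smul_eq_mul]
    rw [hs.h23 y y p, hs.h12 y p y, hs.h23 p y p, hs.h12 y p p, hs.h23 p y p, hpyy, h1, hppp]
    ring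
  have e : x + s • p = y + (c + s) • p := by
    conv_lhs => rw [hxy]
    rw [add_smul]
    abel
  rw [e, key, hxy, key]

/-- a reflection which preserves a smooth cubic is determined by its vector -/
theorem refl_unique {F : MvPolynomial (Fin 6) ℂ} (hF : F.IsHomogeneous 3)
    (hsm : SmoothForm F) {A A' : Matrix (Fin 6) (Fin 6) ℂ} (hA : A * A = 1) (hA' : A' * A' = 1)
    (hr : (A - 1).rank = 1) (hr' : (A' - 1).rank = 1)
    (hinv : ∀ x, eval (A *ᵥ x) F = eval x F) (hinv' : ∀ x, eval (A' *ᵥ x) F = eval x F)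
    {p : Fin 6 → ℂ} (hp : p ≠ 0) (hAp : A *ᵥ p = -p) (hAp' : A' *ᵥ p = -p) : A = A' := by
  have hs := symL_of hF
  obtain ⟨hppp, hval⟩ := refl_vals hF hr hinv hp hAp
  obtain ⟨-, hval'⟩ := refl_vals hF hr' hinv' hp hAp'
  -- off the tangent hyperplane
  have key : ∀ x, T6 (ten F) p p x ≠ 0 → A *ᵥ x = A' *ᵥ x := by
    intro x hx
    obtain ⟨c, y, h1, h2, h3, h4⟩ := hval x
    obtain ⟨c', y', h1', h2', h3', h4'⟩ := hval' x
    have e1 : T6 (ten F) p x x = 2 * c * T6 (ten F) p p x := by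
      rw [h4]
      conv_lhs => rw [h2]
      simp only [map_add, map_smul, LinearMap.add_apply, LinearMap.smul_apply, smul_eq_mul]
      rw [hs.h23 p y p, h3, hppp]
      ring
    have e2 : T6 (ten F) p x x = 2 * c' * T6 (ten F) p p x := by
      rw [h4']
      conv_lhs => rw [h2']
      simp only [map_add, map_smul, LinearMap.add_apply, LinearMap.smul_apply, smul_eq_mul]
      rw [hs.h23 p y' p, h3', hppp]
      ring
    have e3 : 2 * c = 2 * c' := mul_right_cancel₀ hx (e1.symm.trans e2)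
    rw [h1, h1', e3]
  obtain ⟨w0, hw0⟩ : ∃ w0, T6 (ten F) p p w0 ≠ 0 := by
    by_contra hcon
    push Not at hcon
    exact hp (smL_of hF hsm p hcon)
  apply Matrix.toLin'.injective
  refine LinearMap.ext fun x => ?_
  rw [Matrix.toLin'_apply, Matrix.toLin'_apply]
  by_cases hx : T6 (ten F) p p x = 0
  · have h1 := key (x + w0) (by rw [map_add, hx, zero_add]; exact hw0)
    rw [Matrix.mulVec_add, Matrix.mulVec_add, key w0 hw0] at h1
    exact add_right_cancel h1
  · exact key x hx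

end P287H468
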